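import Vale.Agent.P034.Core
import Vale.Agent.P034.Attain

/-!
Talagrand's conjecture: the integral and the fractional expectation thresholds are within a
universal constant factor of each other.
-/

namespace Vale.Agent.Results.P034.Talagrand

universe u

/-- `G` covers `F`: every member of `F` contains a member of `G`. -/
def Covers {X : Type u} (G F : Finset (Finset X)) : Prop :=
  ∀ H ∈ F, ∃ S ∈ G, S ⊆ H

/-- The cost `c_p(G) = ∑_{S ∈ G} p^|S|` of a family. -/
def cost {X : Type u} (G : Finset (Finset X)) (p : ℝ) : ℝ :=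
  ∑ S ∈ G, p ^ S.card

/-- `F` is `p`-small: some cover has cost at most `1/2`. -/
def IsSmall {X : Type u} (F : Finset (Finset X)) (p : ℝ) : Prop :=
  ∃ G : Finset (Finset X), Covers G F ∧ cost G p ≤ 1 / 2

/-- `g : 2^X → [0,1]` is a fractional cover of `F`. -/
def IsFracCover {X : Type u} (g : Finset X → ℝ) (F : Finset (Finset X)) : Prop :=
  (∀ S, g S ∈ Set.Icc (0 : ℝ) 1) ∧ ∀ H ∈ F, 1 ≤ ∑ S ∈ H.powerset, g S

/-- The cost `w(g,p) = ∑_{S ⊆ X} g(S) p^|S|` of a fractional cover. -/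
def fracCost {X : Type u} [Fintype X] (g : Finset X → ℝ) (p : ℝ) : ℝ :=
  ∑ S : Finset X, g S * p ^ S.card

/-- The set of `p ∈ [0,1]` at which `F` is `p`-small. -/
def smallSet {X : Type u} (F : Finset (Finset X)) : Set ℝ :=
  {p | p ∈ Set.Icc (0 : ℝ) 1 ∧ IsSmall F p}

/-- The set of `p ∈ [0,1]` at which `F` has a fractional cover of cost at most `1/2`. -/
def fracSet {X : Type u} [Fintype X] (F : Finset (Finset X)) : Set ℝ :=
  {p | p ∈ Set.Icc (0 : ℝ) 1 ∧ ∃ g : Finset X → ℝ, IsFracCover g F ∧ fracCost g p ≤ 1 / 2}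

/-- The (integral) expectation threshold `q(F)`. -/
noncomputable def q {X : Type u} (F : Finset (Finset X)) : ℝ := sSup (smallSet F)

/-- The fractional expectation threshold `q_f(F)`. -/
noncomputable def qf {X : Type u} [Fintype X] (F : Finset (Finset X)) : ℝ := sSup (fracSet F)

theorem result : ∃ K : ℝ, 0 < K ∧
    ∀ (X : Type u) [Fintype X] [Nonempty X] (F : Finset (Finset X)),
      F.Nonempty → ∅ ∉ F → IsUpperSet (F : Set (Finset X)) →
        IsGreatest (smallSet F) (q F) ∧ IsGreatest (fracSet F) (qf F) ∧ qf F ≤ K * q F := by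
  refine ⟨524288000, by norm_num, ?_⟩
  intro X _ _ F _ hE _
  classical
  have hs0 : (0 : ℝ) ∈ smallSet F :=
    ⟨⟨le_rfl, zero_le_one⟩, F, fun H hH => ⟨H, hH, subset_rfl⟩, P034.zero_cost F hE⟩
  have hf0 : (0 : ℝ) ∈ fracSet F := ⟨⟨le_rfl, zero_le_one⟩, P034.zero_frac F hE⟩
  have h1 : IsGreatest (smallSet F) (q F) := (P034.isCompact_small F).isGreatest_sSup ⟨0, hs0⟩
  have h2 : IsGreatest (fracSet F) (qf F) := (P034.isCompact_frac F).isGreatest_sSup ⟨0, hf0⟩
  refine ⟨h1, h2, ?_⟩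
  obtain ⟨⟨hq0, hq1⟩, g, ⟨hg, hcov⟩, hw⟩ := h2.1
  rcases hq0.eq_or_lt with h | h
  · have := h1.2 hs0
    rw [← h]
    positivity
  · have hp : 0 < qf F / 524288000 := by positivity
    have he : 524288000 * (qf F / 524288000) = qf F := by ring
    obtain ⟨G, hG, hc⟩ := P034.rounding F g (fun S => (hg S).1) hcov _ hp (by rw [he]; exact hw)
    have hmem : qf F / 524288000 ∈ smallSet F :=
      ⟨⟨hp.le, by linarith⟩, G, hG, hc⟩
    have := h1.2 hmem
    linarith

end Vale.Agent.Results.P034.Talagrand
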